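import Vale.Agent.P347.Sep
import Vale.Agent.P347.Indist
import Vale.Agent.P347.Hoeffding
import Vale.Agent.P347.Hessian

/-!
# P347: non-adaptive first-order samplers need exponentially many queries
-/

namespace Vale.Agent.Results.P347.ExplicitRate

open Vale.Agent.P347 MeasureTheory

/-- There is `d₀` such that for `d ≥ d₀` every non-adaptive randomized first-order algorithm which,
for every potential `V` of the class `𝒱_d` (condition number at most `2`), outputs a sample within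
total variation `1/10` of the Gibbs law `π_V`, makes at least `exp (d / 20000)` queries; in
particular its number of queries exceeds every fixed power of `d` for large `d`. -/
theorem rate : ∃ d₀ : ℕ, ∀ d : ℕ, d₀ ≤ d → ∀ (q : ℕ) (A : NonadaptiveAlg d q),
    A.Succeeds → Real.exp ((d : ℝ) / 20000) ≤ q := by
  obtain ⟨lam0, hlam0, hcls⟩ := inClass_V0_V1
  set m : ℝ := min lam0 (1 / 2) with hm
  have hm0 : 0 < m := lt_min hlam0 (by norm_num)
  refine ⟨max 20000000 (⌈(50 / m) ^ 2⌉₊), ?_⟩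
  intro d hd q A hA
  rw [show (d : ℝ) / 20000 = 1 / 20000 * (d : ℝ) by ring]
  have hd1 : 20000000 ≤ d := le_trans (le_max_left _ _) hd
  have hd2 : (50 / m) ^ 2 ≤ (d : ℝ) :=
    (Nat.le_ceil _).trans (by exact_mod_cast le_trans (le_max_right _ _) hd)
  have hd0 : 0 < d := by omega
  have hdR : (20000000 : ℝ) ≤ d := by exact_mod_cast hd1
  have hdpos : (0 : ℝ) < d := by linarith
  -- the coupling strength
  set lam : ℝ := 50 / Real.sqrt d with hlam
  have hsq : 0 < Real.sqrt d := Real.sqrt_pos.2 hdpos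
  have hlam_pos : 0 < lam := by positivity
  have hlam_sq : lam ^ 2 * d = 2500 := by
    rw [hlam, div_pow, Real.sq_sqrt hdpos.le]
    field_simp
    norm_num
  have hlam_le : lam ≤ m := by
    rw [hlam, div_le_iff₀ hsq]
    have : 50 / m ≤ Real.sqrt d := Real.le_sqrt_of_sq_le hd2
    rw [div_le_iff₀ hm0] at this
    linarith
  have hlam_le0 : lam ≤ lam0 := hlam_le.trans (min_le_left _ _)
  have hlam_le1 : lam ≤ 1 / 2 := hlam_le.trans (min_le_right _ _)
  -- choice of the hidden pattern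
  obtain ⟨σ, hσ⟩ := A.exists_hit_le (ι := Fin d → Bool)
    (fun σ => {x : E d | (d : ℝ) / 96 ≤ tStat σ x})
    (fun σ => (isClosed_le continuous_const (continuous_tStat σ)).measurableSet)
    (Real.exp (-(d : ℝ) / 18432)) (by
      intro x
      have h := card_rademacher_ge_le d (fun i => Real.exp (-(x i) ^ 2) - 31 / 48) (fun i => by
        have h1 : Real.exp (-(x i) ^ 2) ≤ 1 :=
          Real.exp_le_one_iff.2 (by nlinarith [sq_nonneg (x i)])
        have h2 : 0 < Real.exp (-(x i) ^ 2) := Real.exp_pos _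
        rw [abs_le]
        constructor <;> linarith) ((d : ℝ) / 96) (by positivity)
      have e1 : -((d : ℝ) / 96) ^ 2 / (2 * d) = -(d : ℝ) / 18432 := by
        field_simp
        norm_num
      rw [e1] at h
      have e2 : (Fintype.card (Fin d → Bool) : ℝ) = 2 ^ d := by simp
      rw [e2, mul_comm]
      convert h using 3
      ext σ
      simp [tStat])
  obtain ⟨hV0, hV1⟩ := hcls d hd0 σ lam hlam_pos.le hlam_le0
  have hN := measurableSet_testSet lam σ
  have key := A.law_le_law_add hV0 hV1 {x : E d | (d : ℝ) / 96 ≤ tStat σ x}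
    (fun x hx => V0_eq_V1 hd0 lam σ x hx) (fun x hx => gradient_V0_eq_V1 hd0 lam σ x hx)
    (testSet lam σ) hN
  have s0 := abs_le.1 (hA _ hV0 _ hN)
  have s1 := abs_le.1 (hA _ hV1 _ hN)
  have t0 := tilt_testSet_ge hd0 σ hlam_pos hlam_le1 hlam_sq.ge
  have t1 := pert_testSet_le hd1 σ hlam_pos hlam_sq.ge
  have hq : (71 / 100 : ℝ) ≤ q * Real.exp (-(d : ℝ) / 18432) := by linarith [s0.1, s1.2]
  -- arithmetic
  have e3 : Real.exp (1 / 20000 * (d : ℝ)) * (71 / 100)
      ≤ q * (Real.exp (-(d : ℝ) / 18432) * Real.exp (1 / 20000 * (d : ℝ))) := by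
    have := mul_le_mul_of_nonneg_right hq (Real.exp_pos (1 / 20000 * (d : ℝ))).le
    linarith
  have e4 : Real.exp (-(d : ℝ) / 18432) * Real.exp (1 / 20000 * (d : ℝ)) * 86 ≤ 1 := by
    rw [← Real.exp_add]
    have h5 : (86 : ℝ) ≤ Real.exp (85) := by
      have := Real.add_one_le_exp (85 : ℝ)
      linarith
    calc Real.exp (-(d : ℝ) / 18432 + 1 / 20000 * (d : ℝ)) * 86
        ≤ Real.exp (-(d : ℝ) / 18432 + 1 / 20000 * (d : ℝ)) * Real.exp 85 := by gcongr
      _ = Real.exp (-(d : ℝ) / 18432 + 1 / 20000 * (d : ℝ) + 85) := (Real.exp_add _ _).symm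
      _ ≤ 1 := Real.exp_le_one_iff.2 (by linarith)
  have hq0 : (0 : ℝ) ≤ q := Nat.cast_nonneg q
  have hE : 0 < Real.exp (1 / 20000 * (d : ℝ)) := Real.exp_pos _
  have e5 : (q : ℝ) * (Real.exp (-(d : ℝ) / 18432) * Real.exp (1 / 20000 * (d : ℝ)) * 86)
      ≤ q * 1 := mul_le_mul_of_nonneg_left e4 hq0
  nlinarith

theorem pow_le_exp (γ : ℝ) : ∃ d₁ : ℕ, ∀ d : ℕ, d₁ ≤ d →
    (d : ℝ) ^ γ ≤ Real.exp ((d : ℝ) / 20000) := by
  have h := (isLittleO_rpow_exp_pos_mul_atTop γ (show (0 : ℝ) < 1 / 20000 by norm_num)).bound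
    (show (0 : ℝ) < 1 by norm_num)
  have h2 := tendsto_natCast_atTop_atTop (R := ℝ) |>.eventually h
  obtain ⟨d₁, hd₁⟩ := Filter.eventually_atTop.1 h2
  refine ⟨d₁, fun d hd => ?_⟩
  have h3 := hd₁ d hd
  rw [one_mul, Real.norm_of_nonneg (Real.rpow_nonneg (Nat.cast_nonneg d) γ),
    Real.norm_of_nonneg (Real.exp_pos _).le] at h3
  rw [show (d : ℝ) / 20000 = 1 / 20000 * (d : ℝ) by ring]
  exact h3

/-- (1) There is `d₀` such that for `d ≥ d₀` every successful non-adaptive algorithm makes at least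
`exp (d / 20000)` queries.  (2) Hence no power of the dimension suffices: for every `γ` and all
large `d`, every successful non-adaptive algorithm makes at least `d ^ γ` queries. -/
theorem result :
    (∃ d₀ : ℕ, ∀ d : ℕ, d₀ ≤ d → ∀ (q : ℕ) (A : NonadaptiveAlg d q),
      A.Succeeds → Real.exp ((d : ℝ) / 20000) ≤ q) ∧
    ∀ γ : ℝ, ∃ d₁ : ℕ, ∀ d : ℕ, d₁ ≤ d → ∀ (q : ℕ) (A : NonadaptiveAlg d q),
      A.Succeeds → (d : ℝ) ^ γ ≤ q := by
  refine ⟨rate, fun γ => ?_⟩
  obtain ⟨d₀, h0⟩ := rate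
  obtain ⟨d₁, h1⟩ := pow_le_exp γ
  exact ⟨max d₀ d₁, fun d hd q A hA =>
    (h1 d (le_trans (le_max_right _ _) hd)).trans (h0 d (le_trans (le_max_left _ _) hd) q A hA)⟩

end Vale.Agent.Results.P347.ExplicitRate
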